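import Vale.Agent.Lib.P121.Nonempty

/-!
# P121: an explicit family of absolutely continuous measures on `ℝ³` with optimal Monge plans

For a unit vector `e`, let `ν` be any absolutely continuous Borel probability measure on `ℝ³`
concentrated on the truncated cone `{1 ≤ |x| ≤ 2, |x - |x| e| ≤ |x|/100}`, and let
`μ = (ν + F₁_* ν + F₂_* ν) / 3`, where `F₁`, `F₂` move a point by `-20`, resp. `+60`, along the
line through the origin.  Then `μ` is an absolutely continuous probability measure, its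
three-marginal Coulomb Kantorovich value is exactly `19/240`, and `μ` admits an optimal Monge
plan.  The class of such `ν` is not empty.
-/

namespace Vale.Agent.Results.P121.CollinearFamily

open MeasureTheory Vale.Agent.Lib.P121

theorem result :
    (∀ (e : E3) (ν : Measure E3), ‖e‖ = 1 → IsProbabilityMeasure ν → ν ≪ volume →
      (∀ᵐ x ∂ν, 1 ≤ ‖x‖ ∧ ‖x‖ ≤ 2 ∧ ‖x - ‖x‖ • e‖ ≤ ‖x‖ / 100) →
      IsProbabilityMeasure (tripled ν) ∧ tripled ν ≪ volume ∧
        kantorovich (tripled ν) = ENNReal.ofReal (19 / 240) ∧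
        ∃ T₂ T₃ : E3 → E3, IsOptimalMonge (tripled ν) T₂ T₃) ∧
    (∀ e : E3, ‖e‖ = 1 → ∃ ν : Measure E3, IsProbabilityMeasure ν ∧ ν ≪ volume ∧
      ∀ᵐ x ∂ν, 1 ≤ ‖x‖ ∧ ‖x‖ ≤ 2 ∧ ‖x - ‖x‖ • e‖ ≤ ‖x‖ / 100) :=
  ⟨fun e ν he hp hν hsupp => by
      haveI := hp
      exact family_optimal e ν he hν hsupp,
    exists_admissible⟩

end Vale.Agent.Results.P121.CollinearFamily
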