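import Vale.Agent.Lib.P121.NMAssemble

/-!
# P121, hand-in `NoMongePlan`

There is a Borel probability measure on `ℝ³`, absolutely continuous with respect to Lebesgue
measure and with finite three-marginal Coulomb Kantorovich value, that admits no optimal Monge
plan.  This disproves the statement of question Q1.
-/

namespace Vale.Agent.Results.P121.NoMongePlan

open MeasureTheory Vale.Agent.Lib.P121

theorem result : ∃ μ : Measure E3, IsProbabilityMeasure μ ∧ μ ≪ volume ∧
    kantorovich μ < ⊤ ∧ ¬ ∃ T₂ T₃ : E3 → E3, IsOptimalMonge μ T₂ T₃ :=
  nm_main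

end Vale.Agent.Results.P121.NoMongePlan
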